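import Mathlib

/-! P245, row INST (helper36): resolvents of a nonnegative symmetric total graph. -/

set_option linter.all false

open Filter Topology

namespace Vale.Agent.P245.H36.Inst

variable {H : Type} [NormedAddCommGroup H] [InnerProductSpace ℝ H]

theorem contr (G : Submodule ℝ (H × H)) (mono : ∀ p ∈ G, 0 ≤ inner ℝ p.2 p.1) {s : ℝ} (hs : 0 < s)
    {p : H × H} (hp : p ∈ G) : ‖p.1‖ ≤ ‖p.1 + s • p.2‖ := by
  have h1 : ‖p.1 + s • p.2‖ ^ 2 = ‖p.1‖ ^ 2 + 2 * inner ℝ p.1 (s • p.2) + ‖s • p.2‖ ^ 2 :=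
    norm_add_sq_real _ _
  have h2 : 0 ≤ inner ℝ p.1 (s • p.2) := by
    rw [real_inner_smul_right, real_inner_comm]
    exact mul_nonneg hs.le (mono p hp)
  have h3 : ‖p.1‖ ^ 2 ≤ ‖p.1 + s • p.2‖ ^ 2 := by
    rw [h1]; nlinarith [sq_nonneg ‖s • p.2‖]
  exact (pow_le_pow_iff_left₀ (norm_nonneg _) (norm_nonneg _) two_ne_zero).1 h3

theorem uniq (G : Submodule ℝ (H × H)) (mono : ∀ p ∈ G, 0 ≤ inner ℝ p.2 p.1) {s : ℝ} (hs : 0 < s)
    {p q : H × H} (hp : p ∈ G) (hq : q ∈ G) (h : p.1 + s • p.2 = q.1 + s • q.2) : p = q := by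
  have h1 := contr G mono hs (G.sub_mem hp hq)
  have h2 : (p - q).1 + s • (p - q).2 = 0 := by
    rw [Prod.fst_sub, Prod.snd_sub, smul_sub]
    have : p.1 - q.1 + (s • p.2 - s • q.2) = (p.1 + s • p.2) - (q.1 + s • q.2) := by abel
    rw [this, h, sub_self]
  rw [h2, norm_zero] at h1
  have h3 : (p - q).1 = 0 := norm_eq_zero.1 (le_antisymm h1 (norm_nonneg _))
  rw [h3, zero_add] at h2
  have h4 : (p - q).2 = 0 := (smul_eq_zero.1 h2).resolve_left hs.ne'
  have h5 : p - q = 0 := Prod.ext h3 h4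
  exact sub_eq_zero.1 h5

theorem exists_res [CompleteSpace H] (G : Submodule ℝ (H × H))
    (mono : ∀ p ∈ G, 0 ≤ inner ℝ p.2 p.1)
    (sym : ∀ p ∈ G, ∀ q ∈ G, inner ℝ p.2 q.1 = inner ℝ p.1 q.2)
    (tot : ∀ s : ℝ, 0 < s → ∀ f : H, ∃ p ∈ G, p.1 + s • p.2 = f)
    (single : ∀ v, ((0 : H), v) ∈ G → v = 0) :
    ∃ J : ℝ → H →L[ℝ] H,
      (∀ s, 0 < s → ∀ x y, inner ℝ (J s x) y = inner ℝ x (J s y)) ∧
      (∀ s, 0 < s → ∀ z y, (z, y) ∈ G → J s (z + s • y) = z) ∧
      (∀ s, 0 < s → ∀ x, (J s x, s⁻¹ • (x - J s x)) ∈ G) ∧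
      (∀ x, Tendsto (fun m : ℕ => J (1 / ((m : ℝ) + 1)) x) atTop (𝓝 x)) := by
  have key : ∀ s : ℝ, ∃ j : H →L[ℝ] H, 0 < s →
      (∀ x, ‖j x‖ ≤ ‖x‖) ∧ (∀ z y, (z, y) ∈ G → j (z + s • y) = z) ∧ (∀ x, (j x, s⁻¹ • (x - j x)) ∈ G) := by
    intro s
    by_cases hs : 0 < s
    · choose P hP hPe using tot s hs
      have hu : ∀ z y, (z, y) ∈ G → P (z + s • y) = (z, y) := fun z y hzy =>
        uniq G mono hs (hP _) hzy (hPe _)
      have hadd : ∀ x y, P (x + y) = P x + P y := by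
        intro x y
        refine uniq G mono hs (hP _) (G.add_mem (hP x) (hP y)) ?_
        rw [hPe, Prod.fst_add, Prod.snd_add, smul_add]
        have : (P x).1 + (P y).1 + (s • (P x).2 + s • (P y).2) =
          ((P x).1 + s • (P x).2) + ((P y).1 + s • (P y).2) := by abel
        rw [this, hPe, hPe]
      have hsmul : ∀ (r : ℝ) x, P (r • x) = r • P x := by
        intro r x
        refine uniq G mono hs (hP _) (G.smul_mem r (hP x)) ?_
        rw [hPe, Prod.smul_fst, Prod.smul_snd, smul_comm s r, ← smul_add, hPe]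
      let j : H →ₗ[ℝ] H :=
        { toFun := fun x => (P x).1
          map_add' := fun x y => by rw [hadd]; rfl
          map_smul' := fun r x => by rw [hsmul]; rfl }
      have hb : ∀ x, ‖j x‖ ≤ 1 * ‖x‖ := by
        intro x
        have := contr G mono hs (hP x)
        rw [hPe] at this
        rw [one_mul]
        exact this
      refine ⟨j.mkContinuous 1 hb, fun _ => ⟨fun x => by simpa using hb x, ?_, ?_⟩⟩
      · intro z y hzy
        show (P (z + s • y)).1 = z
        rw [hu z y hzy]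
      · intro x
        show ((P x).1, s⁻¹ • (x - (P x).1)) ∈ G
        have h1 : s⁻¹ • (x - (P x).1) = (P x).2 := by
          have h2 : x - (P x).1 = s • (P x).2 := by
            rw [sub_eq_iff_eq_add, add_comm]; exact (hPe x).symm
          rw [h2, smul_smul, inv_mul_cancel₀ hs.ne', one_smul]
        rw [h1]
        exact hP x
    · exact ⟨0, fun h => absurd h hs⟩
  choose J hJ using key
  refine ⟨J, ?_, fun s hs z y h => (hJ s hs).2.1 z y h, fun s hs x => (hJ s hs).2.2 x, ?_⟩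
  · intro s hs x y
    have hx := (hJ s hs).2.2 x
    have hy := (hJ s hs).2.2 y
    have h1 := sym _ hx _ hy
    simp only [real_inner_smul_left, real_inner_smul_right, inner_sub_left, inner_sub_right] at h1
    have h2 := mul_left_cancel₀ (inv_ne_zero hs.ne') h1
    linarith
  · -- density of the domain
    have hdense : ∀ x : H, ∀ ε : ℝ, 0 < ε → ∃ z y, (z, y) ∈ G ∧ ‖x - z‖ < ε := by
      let D : Submodule ℝ H := G.map (LinearMap.fst ℝ H H)
      have hD : D.topologicalClosure = ⊤ := by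
        rw [Submodule.topologicalClosure_eq_top_iff, Submodule.eq_bot_iff]
        intro g hg
        rw [Submodule.mem_orthogonal'] at hg
        obtain ⟨p, hp, hpe⟩ := tot 1 one_pos g
        have h1 : inner ℝ g p.1 = 0 := hg _ ⟨p, hp, rfl⟩
        rw [← hpe, one_smul, inner_add_left] at h1
        have h2 := mono p hp
        have h3 : inner ℝ p.1 p.1 = ‖p.1‖ ^ 2 := real_inner_self_eq_norm_sq _
        have h4 : ‖p.1‖ ^ 2 = 0 := by
          have := sq_nonneg ‖p.1‖
          linarith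
        have h5 : p.1 = 0 := norm_eq_zero.1 (pow_eq_zero_iff two_ne_zero |>.1 h4)
        have h6 : p.2 = 0 := single _ (by rw [← h5]; exact hp)
        rw [← hpe, h5, h6]
        simp
      have hd : Dense (D : Set H) := by
        rw [Submodule.dense_iff_topologicalClosure_eq_top]; exact hD
      intro x ε hε
      obtain ⟨z, hz, hzd⟩ := Metric.dense_iff.1 hd x ε hε
      obtain ⟨p, hp, hpe⟩ := hzd
      refine ⟨p.1, p.2, hp, ?_⟩
      have : p.1 = z := hpe
      rw [this, ← dist_eq_norm, dist_comm]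
      exact hz
    intro x
    rw [Metric.tendsto_atTop]
    intro ε hε
    obtain ⟨z, y, hzy, hz⟩ := hdense x (ε / 4) (by positivity)
    obtain ⟨N, hN⟩ := exists_nat_gt (4 * ‖y‖ / ε)
    refine ⟨N, fun m hm => ?_⟩
    set s : ℝ := 1 / ((m : ℝ) + 1) with hs
    have hs0 : 0 < s := by positivity
    have h1 : J s x - x = J s (x - z) + (J s z - z) + (z - x) := by
      rw [map_sub]; abel
    have h2 : J s z - z = - (s • J s y) := by
      have := (hJ s hs0).2.1 z y hzy
      rw [map_add, map_smul] at this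
      rw [eq_neg_iff_add_eq_zero]
      rw [sub_add_eq_add_sub, this, sub_self]
    have h3 : ‖J s z - z‖ ≤ s * ‖y‖ := by
      rw [h2, norm_neg, norm_smul, Real.norm_eq_abs, abs_of_pos hs0]
      exact mul_le_mul_of_nonneg_left ((hJ s hs0).1 y) hs0.le
    have h4 : ‖J s (x - z)‖ < ε / 4 := lt_of_le_of_lt ((hJ s hs0).1 _) hz
    have h5 : ‖z - x‖ < ε / 4 := by rw [norm_sub_rev]; exact hz
    have h6 : s * ‖y‖ ≤ ε / 4 := by
      have hm' : (N : ℝ) ≤ m := by exact_mod_cast hm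
      have h7 : 4 * ‖y‖ / ε < (m : ℝ) + 1 := by linarith
      rw [div_lt_iff₀ hε] at h7
      rw [hs, one_div, inv_mul_le_iff₀ (by positivity)]
      linarith
    rw [dist_eq_norm, h1]
    calc _ ≤ ‖J s (x - z)‖ + ‖J s z - z‖ + ‖z - x‖ := norm_add₃_le
      _ < ε := by linarith

end Vale.Agent.P245.H36.Inst
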