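import Vale.Agent.P245.K.Iface
import Vale.Agent.P245.H36.InstA

/-! P245, row INST (helper36): the graph of `A` on `(L²)ⁿ`. -/

set_option linter.all false

open MeasureTheory Filter Topology Set
open scoped NNReal ENNReal ContDiff

namespace Vale.Agent.P245.H36.Inst

open Vale.Agent.P227.M Vale.Agent.P227.M.K814 Vale.Agent.P254.SN
open Vale.Agent.P245.K
open Vale.Agent.P245.H464 (mu mu_ac ac_mu memLp_iff inner_toLp normsq_toLp normsq_lp TE)

variable {n : ℕ} {V : E n → ℝ} {t : E n → Matrix (Fin n) (Fin n) ℝ} {c C : ℝ}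

noncomputable abbrev LL (V : E n → ℝ) := MeasureTheory.Lp ℝ 2 (mu V)
noncomputable abbrev HH (V : E n → ℝ) := PiLp 2 (fun _ : Fin n => LL V)

theorem l2_lp (hV : Continuous V) (f : LL V) : L2 V (fun x => (f : E n → ℝ) x) :=
  ⟨(MeasureTheory.Lp.stronglyMeasurable f).measurable,
    (memLp_iff hV (MeasureTheory.Lp.stronglyMeasurable f).aestronglyMeasurable).1 (MeasureTheory.Lp.memLp f)⟩

theorem memLp_l2 (hV : Continuous V) {f : E n → ℝ} (hf : L2 V f) : MemLp f 2 (mu V) :=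
  (memLp_iff hV hf.1.aestronglyMeasurable).2 hf.2

theorem inner_lp (hV : Continuous V) (f g : LL V) :
    inner ℝ f g = I V (fun x => (f : E n → ℝ) x * (g : E n → ℝ) x) := by
  have h := inner_toLp hV (MeasureTheory.Lp.memLp f) (MeasureTheory.Lp.memLp g)
  rw [MeasureTheory.Lp.toLp_coeFn, MeasureTheory.Lp.toLp_coeFn] at h
  exact h

theorem inner_hh (hV : Continuous V) (f g : HH V) :
    inner ℝ f g = ∑ i, I V (fun x => (f i : E n → ℝ) x * (g i : E n → ℝ) x) := by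
  rw [PiLp.inner_apply]
  exact Finset.sum_congr rfl fun i _ => inner_lp hV _ _

theorem dom_congr (hL : K.StmtLin) (hB : Base V t c C) {u v Au Av : E n → ℝ} {Du : Fin n → E n → ℝ}
    (h : K.Dom V t u Du Au) (hv : L2 V v) (hAv : L2 V Av) (e1 : u =ᵐ[volume] v) (e2 : Au =ᵐ[volume] Av) :
    K.Dom V t v Du Av := by
  obtain ⟨h1, h2, h3, h4, h5, h6⟩ := hL n V t c C hB
  exact h5 u Au v Av Du Du h hv (h2 u Au Du h).D2 hAv e1 (fun a => Filter.EventuallyEq.rfl) e2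

/-- the graph -/
noncomputable def GG (hL : K.StmtLin) (hB : Base V t c C) : Submodule ℝ (HH V × HH V) where
  carrier := {p | ∀ i, ∃ Du, K.Dom V t (fun x => (p.1 i : E n → ℝ) x) Du (fun x => (p.2 i : E n → ℝ) x)}
  add_mem' := by
    intro p q hp hq i
    have hV : Continuous V := hB.V2.continuous
    obtain ⟨Du, hu⟩ := hp i
    obtain ⟨Dv, hv⟩ := hq i
    refine ⟨_, dom_congr hL hB ((hL n V t c C hB).1 _ _ _ _ _ _ hu hv 1 1) (l2_lp hV _) (l2_lp hV _) ?_ ?_⟩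
    · filter_upwards [(ac_mu hV).ae_le (MeasureTheory.Lp.coeFn_add (p.1 i) (q.1 i))] with x hx
      show 1 * (p.1 i : E n → ℝ) x + 1 * (q.1 i : E n → ℝ) x = ((p.1 i + q.1 i : LL V) : E n → ℝ) x
      rw [hx]; simp
    · filter_upwards [(ac_mu hV).ae_le (MeasureTheory.Lp.coeFn_add (p.2 i) (q.2 i))] with x hx
      show 1 * (p.2 i : E n → ℝ) x + 1 * (q.2 i : E n → ℝ) x = ((p.2 i + q.2 i : LL V) : E n → ℝ) x
      rw [hx]; simp
  zero_mem' := by
    intro i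
    have hV : Continuous V := hB.V2.continuous
    obtain ⟨h1, h2, h3, h4, h5, h6⟩ := hL n V t c C hB
    refine ⟨_, dom_congr hL hB (h1 _ _ _ _ _ _ h6 h6 0 0) (l2_lp hV _) (l2_lp hV _) ?_ ?_⟩
    · filter_upwards [(ac_mu hV).ae_le (MeasureTheory.Lp.coeFn_zero ℝ 2 (mu V))] with x hx
      show 0 * 1 + 0 * 1 = ((0 : LL V) : E n → ℝ) x
      rw [hx]; simp
    · filter_upwards [(ac_mu hV).ae_le (MeasureTheory.Lp.coeFn_zero ℝ 2 (mu V))] with x hx
      show 0 * 0 + 0 * 0 = ((0 : LL V) : E n → ℝ) x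
      rw [hx]; simp
  smul_mem' := by
    intro r p hp i
    have hV : Continuous V := hB.V2.continuous
    obtain ⟨Du, hu⟩ := hp i
    refine ⟨_, dom_congr hL hB ((hL n V t c C hB).1 _ _ _ _ _ _ hu hu r 0) (l2_lp hV _) (l2_lp hV _) ?_ ?_⟩
    · filter_upwards [(ac_mu hV).ae_le (MeasureTheory.Lp.coeFn_smul r (p.1 i))] with x hx
      show r * (p.1 i : E n → ℝ) x + 0 * (p.1 i : E n → ℝ) x = ((r • p.1 i : LL V) : E n → ℝ) x
      rw [hx]; simp
    · filter_upwards [(ac_mu hV).ae_le (MeasureTheory.Lp.coeFn_smul r (p.2 i))] with x hx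
      show r * (p.2 i : E n → ℝ) x + 0 * (p.2 i : E n → ℝ) x = ((r • p.2 i : LL V) : E n → ℝ) x
      rw [hx]; simp

theorem mem_GG {hL : K.StmtLin} {hB : Base V t c C} {z y : HH V} :
    (z, y) ∈ GG hL hB ↔
      ∀ i, ∃ Du, K.Dom V t (fun x => (z i : E n → ℝ) x) Du (fun x => (y i : E n → ℝ) x) := Iff.rfl

theorem ip_nonneg (hB : Base V t c C) (al : E n → Fin n → ℝ) (x : E n) : 0 ≤ ip t al al x := by
  have h := hB.low x (WithLp.toLp 2 (al x))
  have h2 : qf (t x) (WithLp.toLp 2 (al x)) = ip t al al x := rfl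
  rw [← h2]
  refine le_trans ?_ h
  exact mul_nonneg hB.lam_pos.le (by positivity)

theorem ip_symm (hB : Base V t c C) (al be : E n → Fin n → ℝ) (x : E n) : ip t al be x = ip t be al x := by
  unfold ip
  rw [Finset.sum_comm]
  refine Finset.sum_congr rfl fun a _ => Finset.sum_congr rfl fun b _ => ?_
  rw [hB.symm x b a]; ring

theorem I_nonneg {f : E n → ℝ} (h : ∀ x, 0 ≤ f x) : 0 ≤ I V f :=
  integral_nonneg fun x => mul_nonneg (h x) (Real.exp_pos _).le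

theorem GG_mono (hF : StmtForm) (hL : K.StmtLin) (hB : Base V t c C) :
    ∀ p ∈ GG hL hB, 0 ≤ inner ℝ p.2 p.1 := by
  intro p hp
  rw [inner_hh hB.V2.continuous]
  refine Finset.sum_nonneg fun i _ => ?_
  obtain ⟨Du, hu⟩ := hp i
  rw [hF n V t c C hB _ _ _ hu _ _ ((hL n V t c C hB).2.1 _ _ _ hu)]
  exact I_nonneg fun x => ip_nonneg hB _ x

theorem GG_sym (hF : StmtForm) (hL : K.StmtLin) (hB : Base V t c C) :
    ∀ p ∈ GG hL hB, ∀ q ∈ GG hL hB, inner ℝ p.2 q.1 = inner ℝ p.1 q.2 := by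
  intro p hp q hq
  rw [inner_hh hB.V2.continuous, inner_hh hB.V2.continuous]
  refine Finset.sum_congr rfl fun i _ => ?_
  obtain ⟨Du, hu⟩ := hp i
  obtain ⟨Dv, hv⟩ := hq i
  rw [hF n V t c C hB _ _ _ hu _ _ ((hL n V t c C hB).2.1 _ _ _ hv)]
  have e : I V (fun x => (p.1 i : E n → ℝ) x * (q.2 i : E n → ℝ) x) =
      I V (fun x => (q.2 i : E n → ℝ) x * (p.1 i : E n → ℝ) x) :=
    I_congr (Eventually.of_forall fun x => mul_comm _ _)
  rw [e, hF n V t c C hB _ _ _ hv _ _ ((hL n V t c C hB).2.1 _ _ _ hu)]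
  exact I_congr (Eventually.of_forall fun x => ip_symm hB _ _ x)

theorem GG_tot (hL : K.StmtLin) (hB : Base V t c C) :
    ∀ s : ℝ, 0 < s → ∀ f : HH V, ∃ p ∈ GG hL hB, p.1 + s • p.2 = f := by
  intro s hs f
  have hV : Continuous V := hB.V2.continuous
  have key : ∀ i, ∃ (u Au : E n → ℝ) (Du : Fin n → E n → ℝ), K.Dom V t u Du Au ∧ L2 V u ∧ L2 V Au ∧
      ∀ x, u x + s * Au x = (f i : E n → ℝ) x := by
    intro i
    obtain ⟨F, u, Du, Au, hD, he⟩ := Vale.Agent.P245.H464.total hB.toTE (l2_lp hV (f i)).1 (l2_lp hV (f i)).2 hs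
    exact ⟨u, Au, Du, ⟨F, hD⟩, ⟨hD.mu, hD.iu⟩, ⟨hD.mA, hD.iA⟩, he⟩
  choose u Au Du hD hu hA he using key
  have mu' := fun i => memLp_l2 hV (hu i)
  have mA' := fun i => memLp_l2 hV (hA i)
  refine ⟨(WithLp.toLp 2 fun i => (mu' i).toLp (u i), WithLp.toLp 2 fun i => (mA' i).toLp (Au i)), ?_, ?_⟩
  · intro i
    refine ⟨Du i, dom_congr hL hB (hD i) (l2_lp hV _) (l2_lp hV _) ?_ ?_⟩
    · exact ((ac_mu hV).ae_eq (mu' i).coeFn_toLp).symm
    · exact ((ac_mu hV).ae_eq (mA' i).coeFn_toLp).symm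
  · ext1 i
    show (mu' i).toLp (u i) + s • (mA' i).toLp (Au i) = f i
    apply MeasureTheory.Lp.ext
    filter_upwards [MeasureTheory.Lp.coeFn_add ((mu' i).toLp (u i)) (s • (mA' i).toLp (Au i)),
      MeasureTheory.Lp.coeFn_smul s ((mA' i).toLp (Au i)), (mu' i).coeFn_toLp, (mA' i).coeFn_toLp]
      with x h1 h2 h3 h4
    rw [h1, Pi.add_apply, h2, Pi.smul_apply, h3, h4, smul_eq_mul, he i x]

theorem GG_single (hL : K.StmtLin) (hB : Base V t c C) : ∀ v : HH V, ((0 : HH V), v) ∈ GG hL hB → v = 0 := by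
  intro v hv
  have hV : Continuous V := hB.V2.continuous
  obtain ⟨h1, h2, h3, h4, h5, h6⟩ := hL n V t c C hB
  ext1 i
  obtain ⟨Du, hu⟩ := hv i
  have h0 := h1 _ _ _ _ _ _ h6 h6 0 0
  have h7 := dom_congr hL hB h0 (l2_lp hV ((0 : HH V) i)) (Au := _) (Av := fun x => 0) ?_ ?_ ?_
  · have h8 := h4 _ _ _ _ _ hu h7
    apply MeasureTheory.Lp.ext
    filter_upwards [(mu_ac V).ae_le h8, MeasureTheory.Lp.coeFn_zero ℝ 2 (mu V)] with x hx h9
    show (v i : E n → ℝ) x = ((0 : LL V) : E n → ℝ) x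
    rw [h9]; exact hx
  · exact ⟨measurable_const, by simp⟩
  · filter_upwards [(ac_mu hV).ae_le (MeasureTheory.Lp.coeFn_zero ℝ 2 (mu V))] with x hx
    show 0 * 1 + 0 * 1 = ((0 : LL V) : E n → ℝ) x
    rw [hx]; simp
  · exact Eventually.of_forall fun x => by simp

end Vale.Agent.P245.H36.Inst
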