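import Vale.Agent.P245.H36.InstB

/-! P245, row INST (helper36): resolvents on `(L²)ⁿ`. -/

set_option linter.all false

open MeasureTheory Filter Topology Set
open scoped NNReal ENNReal ContDiff

namespace Vale.Agent.P245.H36.Inst

open Vale.Agent.P227.M Vale.Agent.P227.M.K814 Vale.Agent.P254.SN
open Vale.Agent.P245.K
open Vale.Agent.P245.H464 (mu mu_ac ac_mu memLp_iff inner_toLp normsq_toLp normsq_lp TE)

variable {n : ℕ} {V : E n → ℝ} {t : E n → Matrix (Fin n) (Fin n) ℝ} {c C : ℝ}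

theorem exists_J (hF : K.StmtForm) (hL : K.StmtLin) (hB : Base V t c C) :
    ∃ J : ℝ → HH V →L[ℝ] HH V,
      (∀ s, 0 < s → ∀ x y, inner ℝ (J s x) y = inner ℝ x (J s y)) ∧
      (∀ s, 0 < s → ∀ z y, J 1 (z + y) = z → J s (z + s • y) = z) ∧
      (∀ s, 0 < s → ∀ x, J 1 (J s x + s⁻¹ • (x - J s x)) = J s x) ∧
      (∀ z y, J 1 (z + y) = z → 0 ≤ inner ℝ y z) ∧
      (∀ x, Tendsto (fun m : ℕ => J (1 / ((m : ℝ) + 1)) x) atTop (𝓝 x)) ∧
      (∀ z y, J 1 (z + y) = z ↔ (z, y) ∈ GG hL hB) ∧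
      (∀ s, 0 < s → ∀ x, (J s x, s⁻¹ • (x - J s x)) ∈ GG hL hB) := by
  obtain ⟨J, h1, h2, h3, h4⟩ := exists_res (GG hL hB) (GG_mono hF hL hB) (GG_sym hF hL hB)
    (GG_tot hL hB) (GG_single hL hB)
  have hiff : ∀ z y, J 1 (z + y) = z ↔ (z, y) ∈ GG hL hB := by
    intro z y
    constructor
    · intro h
      have := h3 1 one_pos (z + y)
      rw [h] at this
      simpa using this
    · intro h
      have := h2 1 one_pos z y h
      simpa using this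
  refine ⟨J, h1, ?_, ?_, ?_, h4, hiff, h3⟩
  · intro s hs z y h
    exact h2 s hs z y ((hiff z y).1 h)
  · intro s hs x
    exact (hiff _ _).2 (h3 s hs x)
  · intro z y h
    exact GG_mono hF hL hB _ ((hiff z y).1 h)

/-- 711's form of the interface -/
theorem i1 (hF : K.StmtForm) (hL : K.StmtLin) (hB : Base V t c C) :
    ∃ J : ℝ → HH V →L[ℝ] HH V,
      (∀ s, 0 < s → ∀ x y, inner ℝ (J s x) y = inner ℝ x (J s y)) ∧
      (∀ s, 0 < s → ∀ z y, J 1 (z + y) = z → J s (z + s • y) = z) ∧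
      (∀ s, 0 < s → ∀ x, J 1 (J s x + s⁻¹ • (x - J s x)) = J s x) ∧
      (∀ z y, J 1 (z + y) = z → 0 ≤ inner ℝ y z) ∧
      (∀ x, Tendsto (fun m : ℕ => J (1 / ((m : ℝ) + 1)) x) atTop (𝓝 x)) ∧
      (∀ z y, J 1 (z + y) = z → ∃ (u Au : Fin n → E n → ℝ) (Du : Fin n → Fin n → E n → ℝ),
        (∀ i, K.Dom V t (u i) (Du i) (Au i)) ∧ (∀ i, (z i : E n → ℝ) =ᵐ[volume] u i) ∧
        (∀ i, (y i : E n → ℝ) =ᵐ[volume] Au i)) ∧
      (∀ (u Au : Fin n → E n → ℝ) (Du : Fin n → Fin n → E n → ℝ), (∀ i, K.Dom V t (u i) (Du i) (Au i)) →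
        ∀ z y : HH V, (∀ i, (z i : E n → ℝ) =ᵐ[volume] u i) → (∀ i, (y i : E n → ℝ) =ᵐ[volume] Au i) →
          J 1 (z + y) = z) := by
  obtain ⟨J, h1, h2, h3, h4, h5, h6, h7⟩ := exists_J hF hL hB
  have hV : Continuous V := hB.V2.continuous
  refine ⟨J, h1, h2, h3, h4, h5, ?_, ?_⟩
  · intro z y h
    have h8 := mem_GG.1 ((h6 z y).1 h)
    choose Du hD using h8
    exact ⟨_, _, Du, hD, fun i => Filter.EventuallyEq.rfl, fun i => Filter.EventuallyEq.rfl⟩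
  · intro u Au Du hD z y hz hy
    refine (h6 z y).2 (mem_GG.2 fun i => ⟨Du i, ?_⟩)
    exact dom_congr hL hB (hD i) (l2_lp hV _) (l2_lp hV _) (hz i).symm (hy i).symm

end Vale.Agent.P245.H36.Inst
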